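import Mathlib

namespace Vale.Agent.H27.PTS

/-- pure type specifications: sorts `S`, axioms, rules -/
structure Spec (S : Type*) where
  /-- the axioms, a relation on sorts -/
  ax : S → S → Prop
  /-- the rules, a ternary relation on sorts -/
  rule : S → S → S → Prop

/-- expressions, in de Bruijn form (so bound variables are taken modulo renaming) -/
inductive Expr (S : Type*) where
  | var : ℕ → Expr S
  | sort : S → Expr S
  | app : Expr S → Expr S → Expr S
  | lam : Expr S → Expr S → Expr S
  | pi : Expr S → Expr S → Expr S

/-- add one to all variables with index at least `c` -/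
def lift {S : Type*} (c : ℕ) : Expr S → Expr S
  | .var n => if n < c then .var n else .var (n + 1)
  | .sort s => .sort s
  | .app M N => .app (lift c M) (lift c N)
  | .lam A M => .lam (lift c A) (lift (c + 1) M)
  | .pi A B => .pi (lift c A) (lift (c + 1) B)

/-- capture-avoiding substitution of `N` for variable `k`; variables above `k` go down by one -/
def subst {S : Type*} (k : ℕ) (N : Expr S) : Expr S → Expr S
  | .var n => if n < k then .var n else if n = k then N else .var (n - 1)
  | .sort s => .sort s
  | .app P Q => .app (subst k N P) (subst k N Q)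
  | .lam A M => .lam (subst k N A) (subst (k + 1) (lift 0 N) M)
  | .pi A B => .pi (subst k N A) (subst (k + 1) (lift 0 N) B)

/-- one step of beta reduction: the compatible closure of `(λx:A.M) N → M[x:=N]` -/
inductive Step {S : Type*} : Expr S → Expr S → Prop where
  | beta (A M N) : Step (.app (.lam A M) N) (subst 0 N M)
  | appL {M M'} (N) : Step M M' → Step (.app M N) (.app M' N)
  | appR (M) {N N'} : Step N N' → Step (.app M N) (.app M N')
  | lamL {A A'} (M) : Step A A' → Step (.lam A M) (.lam A' M)
  | lamR (A) {M M'} : Step M M' → Step (.lam A M) (.lam A M')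
  | piL {A A'} (B) : Step A A' → Step (.pi A B) (.pi A' B)
  | piR (A) {B B'} : Step B B' → Step (.pi A B) (.pi A B')

/-- derivable judgments `Γ ⊢ M : B`; the head of the list `Γ` is the last declared variable -/
inductive Typing {S : Type*} (P : Spec S) : List (Expr S) → Expr S → Expr S → Prop where
  | axm {s₁ s₂} : P.ax s₁ s₂ → Typing P [] (.sort s₁) (.sort s₂)
  | var {Γ A s} : Typing P Γ A (.sort s) → Typing P (A :: Γ) (.var 0) (lift 0 A)
  | weak {Γ M B A s} : Typing P Γ M B → Typing P Γ A (.sort s) →
      Typing P (A :: Γ) (lift 0 M) (lift 0 B)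
  | pi {Γ A B s₁ s₂ s₃} : Typing P Γ A (.sort s₁) → Typing P (A :: Γ) B (.sort s₂) →
      P.rule s₁ s₂ s₃ → Typing P Γ (.pi A B) (.sort s₃)
  | lam {Γ A M B s} : Typing P (A :: Γ) M B → Typing P Γ (.pi A B) (.sort s) →
      Typing P Γ (.lam A M) (.pi A B)
  | app {Γ M N A B} : Typing P Γ M (.pi A B) → Typing P Γ N A →
      Typing P Γ (.app M N) (subst 0 N B)
  | conv {Γ M A B s} : Typing P Γ M A → Typing P Γ B (.sort s) →
      Relation.EqvGen Step A B → Typing P Γ M B

/-- legal expressions: subject or type of some derivable judgment, in any context -/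
def Legal {S : Type*} (P : Spec S) (M : Expr S) : Prop :=
  (∃ Γ B, Typing P Γ M B) ∨ ∃ Γ N, Typing P Γ N M

/-- weak normalization: every legal expression reduces to a beta-normal form -/
def WN {S : Type*} (P : Spec S) : Prop :=
  ∀ M, Legal P M → ∃ N, Relation.ReflTransGen Step M N ∧ ∀ N', ¬ Step N N'

/-- strong normalization: no legal expression starts an infinite reduction sequence -/
def SN {S : Type*} (P : Spec S) : Prop :=
  ∀ M, Legal P M → ¬ ∃ f : ℕ → Expr S, f 0 = M ∧ ∀ n, Step (f n) (f (n + 1))

end Vale.Agent.H27.PTS
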