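import Vale.Agent.H27.PTSDefs

namespace Vale.Agent.H27.PTS

section lemmas

/-- rename the sorts of an expression -/
def rn {S T : Type*} (g : S → T) : Expr S → Expr T
  | .var n => .var n
  | .sort s => .sort (g s)
  | .app M N => .app (rn g M) (rn g N)
  | .lam A M => .lam (rn g A) (rn g M)
  | .pi A B => .pi (rn g A) (rn g B)

variable {S T : Type*}

lemma rn_lift (g : S → T) (M : Expr S) : ∀ c, rn g (lift c M) = lift c (rn g M) := by
  induction M with
  | var n => intro c; simp only [lift, rn]; split_ifs <;> simp [rn]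
  | sort s => intro c; simp [lift, rn]
  | app M N ihM ihN => intro c; simp [lift, rn, ihM, ihN]
  | lam A M ihA ihM => intro c; simp [lift, rn, ihA, ihM]
  | pi A B ihA ihB => intro c; simp [lift, rn, ihA, ihB]

lemma rn_subst (g : S → T) (M : Expr S) :
    ∀ (k : ℕ) (N : Expr S), rn g (subst k N M) = subst k (rn g N) (rn g M) := by
  induction M with
  | var n => intro k N; simp only [subst, rn]; split_ifs <;> simp [rn]
  | sort s => intro k N; simp [subst, rn]
  | app P Q ihP ihQ => intro k N; simp [subst, rn, ihP, ihQ]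
  | lam A M ihA ihM => intro k N; simp [subst, rn, ihA, ihM, rn_lift]
  | pi A B ihA ihB => intro k N; simp [subst, rn, ihA, ihB, rn_lift]

lemma step_rn (g : S → T) {M N : Expr S} (h : Step M N) : Step (rn g M) (rn g N) := by
  induction h with
  | beta A M N => rw [rn_subst]; exact Step.beta _ _ _
  | appL N _ ih => exact Step.appL _ ih
  | appR M _ ih => exact Step.appR _ ih
  | lamL M _ ih => exact Step.lamL _ ih
  | lamR A _ ih => exact Step.lamR _ ih
  | piL B _ ih => exact Step.piL _ ih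
  | piR A _ ih => exact Step.piR _ ih

lemma step_unrn (g : S → T) (M : Expr S) :
    ∀ N' : Expr T, Step (rn g M) N' → ∃ N, Step M N ∧ rn g N = N' := by
  induction M with
  | var n => intro N' h; cases h
  | sort s => intro N' h; cases h
  | app P Q ihP ihQ =>
    intro N' h
    simp only [rn] at h
    generalize hX : rn g P = X at h
    cases h with
    | beta A M N =>
      cases P with
      | lam A₀ M₀ =>
        simp only [rn, Expr.lam.injEq] at hX
        exact ⟨subst 0 Q M₀, Step.beta _ _ _, by rw [rn_subst, hX.2]⟩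
      | var n => simp [rn] at hX
      | sort s => simp [rn] at hX
      | app _ _ => simp [rn] at hX
      | pi _ _ => simp [rn] at hX
    | appL N h' =>
      subst hX
      obtain ⟨P', hP', rfl⟩ := ihP _ h'
      exact ⟨.app P' Q, Step.appL _ hP', rfl⟩
    | appR M h' =>
      subst hX
      obtain ⟨Q', hQ', rfl⟩ := ihQ _ h'
      exact ⟨.app P Q', Step.appR _ hQ', rfl⟩
  | lam A M ihA ihM =>
    intro N' h
    simp only [rn] at h
    cases h with
    | lamL _ h' =>
      obtain ⟨A', hA', rfl⟩ := ihA _ h'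
      exact ⟨.lam A' M, Step.lamL _ hA', rfl⟩
    | lamR _ h' =>
      obtain ⟨M', hM', rfl⟩ := ihM _ h'
      exact ⟨.lam A M', Step.lamR _ hM', rfl⟩
  | pi A B ihA ihB =>
    intro N' h
    simp only [rn] at h
    cases h with
    | piL _ h' =>
      obtain ⟨A', hA', rfl⟩ := ihA _ h'
      exact ⟨.pi A' B, Step.piL _ hA', rfl⟩
    | piR _ h' =>
      obtain ⟨B', hB', rfl⟩ := ihB _ h'
      exact ⟨.pi A B', Step.piR _ hB', rfl⟩

lemma eqv_rn (g : S → T) {M N : Expr S} (h : Relation.EqvGen Step M N) :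
    Relation.EqvGen Step (rn g M) (rn g N) := by
  induction h with
  | rel _ _ h => exact Relation.EqvGen.rel _ _ (step_rn g h)
  | refl _ => exact Relation.EqvGen.refl _
  | symm _ _ _ ih => exact Relation.EqvGen.symm _ _ ih
  | trans _ _ _ _ _ ih₁ ih₂ => exact Relation.EqvGen.trans _ _ _ ih₁ ih₂

/-- morphisms of specifications preserve derivability -/
lemma typing_rn (g : S → T) (P : Spec S) (Q : Spec T)
    (hax : ∀ s t, P.ax s t → Q.ax (g s) (g t))
    (hrule : ∀ s t u, P.rule s t u → Q.rule (g s) (g t) (g u))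
    {Γ : List (Expr S)} {M B : Expr S} (h : Typing P Γ M B) :
    Typing Q (Γ.map (rn g)) (rn g M) (rn g B) := by
  induction h with
  | axm h => exact Typing.axm (hax _ _ h)
  | var _ ih => rw [List.map_cons, rn_lift]; exact Typing.var ih
  | weak _ _ ih₁ ih₂ =>
    rw [List.map_cons, rn_lift, rn_lift]; exact Typing.weak ih₁ ih₂
  | pi _ _ hr ih₁ ih₂ => exact Typing.pi ih₁ ih₂ (hrule _ _ _ hr)
  | lam _ _ ih₁ ih₂ => exact Typing.lam ih₁ ih₂
  | app _ _ ih₁ ih₂ => rw [rn_subst]; exact Typing.app ih₁ ih₂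
  | conv _ _ he ih₁ ih₂ => exact Typing.conv ih₁ ih₂ (eqv_rn g he)

/-- a derivation uses only finitely many sorts -/
lemma typing_finite (P : Spec S) {Γ : List (Expr S)} {M B : Expr S} (h : Typing P Γ M B) :
    ∃ F : Set S, F.Finite ∧ ∀ (T : Type) (f : T → S) (g : S → T), (∀ s ∈ F, f (g s) = s) →
      Typing (⟨fun s t => P.ax (f s) (f t), fun s t u => P.rule (f s) (f t) (f u)⟩ : Spec T)
        (Γ.map (rn g)) (rn g M) (rn g B) := by
  induction h with
  | @axm s₁ s₂ h =>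
    refine ⟨{s₁, s₂}, Set.toFinite _, fun T f g hfg => ?_⟩
    refine Typing.axm ?_
    change P.ax (f (g s₁)) (f (g s₂))
    rw [hfg s₁ (by simp), hfg s₂ (by simp)]
    exact h
  | var _ ih =>
    obtain ⟨F, hF, H⟩ := ih
    refine ⟨F, hF, fun T f g hfg => ?_⟩
    rw [List.map_cons, rn_lift]
    exact Typing.var (H T f g hfg)
  | weak _ _ ih₁ ih₂ =>
    obtain ⟨F₁, hF₁, H₁⟩ := ih₁
    obtain ⟨F₂, hF₂, H₂⟩ := ih₂
    refine ⟨F₁ ∪ F₂, hF₁.union hF₂, fun T f g hfg => ?_⟩
    rw [List.map_cons, rn_lift, rn_lift]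
    exact Typing.weak (H₁ T f g fun s hs => hfg s (Or.inl hs))
      (H₂ T f g fun s hs => hfg s (Or.inr hs))
  | @pi Γ A B s₁ s₂ s₃ _ _ hr ih₁ ih₂ =>
    obtain ⟨F₁, hF₁, H₁⟩ := ih₁
    obtain ⟨F₂, hF₂, H₂⟩ := ih₂
    refine ⟨(F₁ ∪ F₂) ∪ {s₁, s₂, s₃}, (hF₁.union hF₂).union (Set.toFinite _),
      fun T f g hfg => ?_⟩
    refine Typing.pi (H₁ T f g fun s hs => hfg s (Or.inl (Or.inl hs)))
      (H₂ T f g fun s hs => hfg s (Or.inl (Or.inr hs))) ?_
    change P.rule (f (g s₁)) (f (g s₂)) (f (g s₃))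
    rw [hfg s₁ (by simp), hfg s₂ (by simp), hfg s₃ (by simp)]
    exact hr
  | lam _ _ ih₁ ih₂ =>
    obtain ⟨F₁, hF₁, H₁⟩ := ih₁
    obtain ⟨F₂, hF₂, H₂⟩ := ih₂
    refine ⟨F₁ ∪ F₂, hF₁.union hF₂, fun T f g hfg => ?_⟩
    exact Typing.lam (H₁ T f g fun s hs => hfg s (Or.inl hs))
      (H₂ T f g fun s hs => hfg s (Or.inr hs))
  | app _ _ ih₁ ih₂ =>
    obtain ⟨F₁, hF₁, H₁⟩ := ih₁
    obtain ⟨F₂, hF₂, H₂⟩ := ih₂
    refine ⟨F₁ ∪ F₂, hF₁.union hF₂, fun T f g hfg => ?_⟩
    rw [rn_subst]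
    exact Typing.app (H₁ T f g fun s hs => hfg s (Or.inl hs))
      (H₂ T f g fun s hs => hfg s (Or.inr hs))
  | conv _ _ he ih₁ ih₂ =>
    obtain ⟨F₁, hF₁, H₁⟩ := ih₁
    obtain ⟨F₂, hF₂, H₂⟩ := ih₂
    refine ⟨F₁ ∪ F₂, hF₁.union hF₂, fun T f g hfg => ?_⟩
    exact Typing.conv (H₁ T f g fun s hs => hfg s (Or.inl hs))
      (H₂ T f g fun s hs => hfg s (Or.inr hs)) (eqv_rn g he)

lemma reds_unrn (g : S → T) {X Y : Expr T} (h : Relation.ReflTransGen Step X Y) :
    ∀ M : Expr S, rn g M = X → ∃ N, Relation.ReflTransGen Step M N ∧ rn g N = Y := by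
  induction h with
  | refl => exact fun M hM => ⟨M, Relation.ReflTransGen.refl, hM⟩
  | tail _ hst ih =>
    intro M hM
    obtain ⟨N, hN, hNY⟩ := ih M hM
    rw [← hNY] at hst
    obtain ⟨N', hN', hEq⟩ := step_unrn g N _ hst
    exact ⟨N', hN.tail hN', hEq⟩

end lemmas

end Vale.Agent.H27.PTS
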